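import Mathlib

/-!
# S0112, package H: resolvent truncation (helper58)

For a bounded operator `v` on a complex Hilbert space and `R > 0` put
`A = 1 + (v⋆ v)/R`, `w = A⁻¹`, `trunc v R = v * w`.  Then

* `‖trunc v R‖ ≤ √R / 2`                                        (`norm_trunc_le`)
* `‖v ξ - trunc v R ξ‖ ≤ ‖v⋆ (v ξ)‖ / (2 √R)`                    (`norm_sub_trunc_le`)
* `‖v ξ - trunc v R ξ‖² ≤ ‖v⋆ (v ξ)‖² / (4 R)`                   (`norm_sub_trunc_sq_le`)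
* `trunc v R` commutes with everything commuting with `v` and `v⋆` (`commute_trunc`)
* `v ∈ M → trunc v R ∈ M` for a von Neumann algebra `M`           (`trunc_mem`)

Mathlib only.
-/

set_option autoImplicit false

namespace Crest.Agent.Helper58.S0112

open scoped InnerProductSpace ComplexConjugate

variable {H : Type*} [NormedAddCommGroup H] [InnerProductSpace ℂ H] [CompleteSpace H]

/-- The operator `1 + (v⋆ v)/R`. -/
noncomputable def resA (v : H →L[ℂ] H) (R : ℝ) : H →L[ℂ] H :=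
  1 + ((R : ℂ)⁻¹) • (star v * v)

theorem resA_apply (v : H →L[ℂ] H) (R : ℝ) (z : H) :
    resA v R z = z + ((R : ℂ)⁻¹) • (star v (v z)) := by
  simp [resA]

/-- `⟪z, v⋆ (v z)⟫ = ‖v z‖²`. -/
theorem inner_star_mul_self (v : H →L[ℂ] H) (z : H) :
    ⟪z, star v (v z)⟫_ℂ = ((‖v z‖ ^ 2 : ℝ) : ℂ) := by
  rw [ContinuousLinearMap.star_eq_adjoint, ContinuousLinearMap.adjoint_inner_right,
    inner_self_eq_norm_sq_to_K]
  norm_cast

theorem re_inner_smul_star (v : H →L[ℂ] H) (R : ℝ) (z : H) :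
    RCLike.re ⟪z, ((R : ℂ)⁻¹) • (star v (v z))⟫_ℂ = R⁻¹ * ‖v z‖ ^ 2 := by
  rw [inner_smul_right, inner_star_mul_self]
  have : ((R : ℂ)⁻¹) * ((‖v z‖ ^ 2 : ℝ) : ℂ) = ((R⁻¹ * ‖v z‖ ^ 2 : ℝ) : ℂ) := by
    push_cast; ring
  rw [this]
  exact Complex.ofReal_re _

/-- The key inequality: `‖v z‖² ≤ (R/4) ‖(1 + v⋆v/R) z‖²`. -/
theorem norm_sq_le_resA (v : H →L[ℂ] H) {R : ℝ} (hR : 0 < R) (z : H) :
    ‖v z‖ ^ 2 ≤ R / 4 * ‖resA v R z‖ ^ 2 := by
  rw [resA_apply]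
  set u : H := ((R : ℂ)⁻¹) • (star v (v z)) with hu
  have h1 : ‖z + u‖ ^ 2 = ‖z‖ ^ 2 + 2 * RCLike.re ⟪z, u⟫_ℂ + ‖u‖ ^ 2 := norm_add_sq (𝕜 := ℂ) z u
  have h2 : ‖z - u‖ ^ 2 = ‖z‖ ^ 2 - 2 * RCLike.re ⟪z, u⟫_ℂ + ‖u‖ ^ 2 := norm_sub_sq (𝕜 := ℂ) z u
  have h3 : RCLike.re ⟪z, u⟫_ℂ = R⁻¹ * ‖v z‖ ^ 2 := re_inner_smul_star v R z
  have h4 : 0 ≤ ‖z - u‖ ^ 2 := by positivity
  have h5 : R / 4 * ‖z + u‖ ^ 2 = R / 4 * ‖z - u‖ ^ 2 + ‖v z‖ ^ 2 := by
    rw [h1, h2, h3]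
    field_simp
    ring
  rw [h5]
  have : 0 ≤ R / 4 * ‖z - u‖ ^ 2 := by positivity
  linarith

theorem resA_isUnit (v : H →L[ℂ] H) {R : ℝ} (hR : 0 < R) : IsUnit (resA v R) := by
  apply ContinuousLinearMap.isUnit_of_forall_le_norm_inner_map (resA v R) (c := 1) one_pos
  intro x
  have h0 : ⟪resA v R x, x⟫_ℂ = ((‖x‖ ^ 2 + R⁻¹ * ‖v x‖ ^ 2 : ℝ) : ℂ) := by
    rw [resA_apply, inner_add_left, inner_smul_left, ← inner_conj_symm (star v (v x)) x,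
      inner_star_mul_self, inner_self_eq_norm_sq_to_K]
    simp
  rw [h0]
  have hpos : 0 ≤ R⁻¹ * ‖v x‖ ^ 2 := by positivity
  have hnn : 0 ≤ ‖x‖ ^ 2 + R⁻¹ * ‖v x‖ ^ 2 := by positivity
  rw [Complex.norm_real, Real.norm_of_nonneg hnn]
  simp only [NNReal.coe_one, mul_one]
  linarith

/-- The truncated operator `v (1 + v⋆v/R)⁻¹`. -/
noncomputable def trunc (v : H →L[ℂ] H) (R : ℝ) : H →L[ℂ] H :=
  v * Ring.inverse (resA v R)

theorem resA_mul_inverse (v : H →L[ℂ] H) {R : ℝ} (hR : 0 < R) :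
    resA v R * Ring.inverse (resA v R) = 1 :=
  Ring.mul_inverse_cancel _ (resA_isUnit v hR)

theorem inverse_mul_resA (v : H →L[ℂ] H) {R : ℝ} (hR : 0 < R) :
    Ring.inverse (resA v R) * resA v R = 1 :=
  Ring.inverse_mul_cancel _ (resA_isUnit v hR)

theorem resA_inverse_apply (v : H →L[ℂ] H) {R : ℝ} (hR : 0 < R) (x : H) :
    resA v R (Ring.inverse (resA v R) x) = x := by
  have := congrArg (fun f : H →L[ℂ] H => f x) (resA_mul_inverse v hR)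
  simpa using this

/-- `‖trunc v R x‖² ≤ (R/4) ‖x‖²`. -/
theorem norm_trunc_apply_sq_le (v : H →L[ℂ] H) {R : ℝ} (hR : 0 < R) (x : H) :
    ‖trunc v R x‖ ^ 2 ≤ R / 4 * ‖x‖ ^ 2 := by
  have h := norm_sq_le_resA v hR (Ring.inverse (resA v R) x)
  rw [resA_inverse_apply v hR] at h
  simpa [trunc] using h

theorem norm_trunc_apply_le (v : H →L[ℂ] H) {R : ℝ} (hR : 0 < R) (x : H) :
    ‖trunc v R x‖ ≤ Real.sqrt R / 2 * ‖x‖ := by
  have h := norm_trunc_apply_sq_le v hR x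
  have hs : Real.sqrt R ^ 2 = R := Real.sq_sqrt hR.le
  have h0 : 0 ≤ Real.sqrt R / 2 * ‖x‖ := by positivity
  have h1 : ‖trunc v R x‖ ^ 2 ≤ (Real.sqrt R / 2 * ‖x‖) ^ 2 := by
    calc ‖trunc v R x‖ ^ 2 ≤ R / 4 * ‖x‖ ^ 2 := h
      _ = (Real.sqrt R / 2 * ‖x‖) ^ 2 := by rw [mul_pow, div_pow, hs]; norm_num
  exact le_of_sq_le_sq h1 h0 |> fun h => by simpa using h

/-- (H1) `‖v (1 + v⋆v/R)⁻¹‖ ≤ √R / 2`. -/
theorem norm_trunc_le (v : H →L[ℂ] H) {R : ℝ} (hR : 0 < R) :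
    ‖trunc v R‖ ≤ Real.sqrt R / 2 :=
  ContinuousLinearMap.opNorm_le_bound _ (by positivity) (norm_trunc_apply_le v hR)

/-- Anything commuting with `v` and `v⋆` commutes with `(1 + v⋆v/R)⁻¹`. -/
theorem commute_inverse (v : H →L[ℂ] H) {R : ℝ} (hR : 0 < R) (b : H →L[ℂ] H)
    (h1 : b * v = v * b) (h2 : b * star v = star v * b) :
    b * Ring.inverse (resA v R) = Ring.inverse (resA v R) * b := by
  have hy : b * (star v * v) = (star v * v) * b := by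
    rw [← mul_assoc, h2, mul_assoc, h1, mul_assoc]
  have hA : b * resA v R = resA v R * b := by
    simp only [resA, mul_add, add_mul, mul_one, one_mul, mul_smul_comm, smul_mul_assoc, hy]
  calc b * Ring.inverse (resA v R)
      = (Ring.inverse (resA v R) * resA v R) * (b * Ring.inverse (resA v R)) := by
        rw [inverse_mul_resA v hR, one_mul]
    _ = Ring.inverse (resA v R) * ((resA v R * b) * Ring.inverse (resA v R)) := by
        simp only [mul_assoc]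
    _ = Ring.inverse (resA v R) * ((b * resA v R) * Ring.inverse (resA v R)) := by rw [hA]
    _ = Ring.inverse (resA v R) * b * (resA v R * Ring.inverse (resA v R)) := by
        simp only [mul_assoc]
    _ = Ring.inverse (resA v R) * b := by rw [resA_mul_inverse v hR, mul_one]

/-- (H3) `trunc v R` commutes with everything commuting with `v` and `v⋆`. -/
theorem commute_trunc (v : H →L[ℂ] H) {R : ℝ} (hR : 0 < R) (b : H →L[ℂ] H)
    (h1 : b * v = v * b) (h2 : b * star v = star v * b) :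
    b * trunc v R = trunc v R * b := by
  unfold trunc
  rw [← mul_assoc, h1, mul_assoc, commute_inverse v hR b h1 h2, mul_assoc]

/-- (H3') `v ∈ M → trunc v R ∈ M` for a von Neumann algebra `M` (`M = M''`). -/
theorem trunc_mem (M : VonNeumannAlgebra H) (v : H →L[ℂ] H) {R : ℝ} (hR : 0 < R)
    (hv : v ∈ M) : trunc v R ∈ M := by
  rw [← VonNeumannAlgebra.commutant_commutant M, VonNeumannAlgebra.mem_commutant_iff]
  intro g hg
  rw [VonNeumannAlgebra.mem_commutant_iff] at hg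
  have hv' : star v ∈ M := star_mem hv
  exact commute_trunc v hR g (hg v hv).symm (hg (star v) hv').symm

/-- `v - trunc v R = R⁻¹ • trunc v R * (v⋆ v)`. -/
theorem sub_trunc_eq (v : H →L[ℂ] H) {R : ℝ} (hR : 0 < R) :
    v - trunc v R = ((R : ℂ)⁻¹) • (trunc v R * (star v * v)) := by
  have hw : Ring.inverse (resA v R) * (1 + ((R : ℂ)⁻¹) • (star v * v)) = 1 :=
    inverse_mul_resA v hR
  have h3 : Ring.inverse (resA v R) * (((R : ℂ)⁻¹) • (star v * v))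
      = 1 - Ring.inverse (resA v R) := by
    rw [mul_add, mul_one] at hw
    rw [← hw]; abel
  unfold trunc
  rw [← mul_smul_comm, mul_assoc, h3, mul_sub, mul_one]

theorem sub_trunc_apply (v : H →L[ℂ] H) {R : ℝ} (hR : 0 < R) (ξ : H) :
    v ξ - trunc v R ξ = ((R : ℂ)⁻¹) • trunc v R (star v (v ξ)) := by
  have := congrArg (fun f : H →L[ℂ] H => f ξ) (sub_trunc_eq v hR)
  simpa using this

/-- (H2) `‖v ξ - trunc v R ξ‖ ≤ ‖v⋆ v ξ‖ / (2 √R)`. -/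
theorem norm_sub_trunc_le (v : H →L[ℂ] H) {R : ℝ} (hR : 0 < R) (ξ : H) :
    ‖v ξ - trunc v R ξ‖ ≤ ‖star v (v ξ)‖ / (2 * Real.sqrt R) := by
  rw [sub_trunc_apply v hR, norm_smul]
  have hs : Real.sqrt R ^ 2 = R := Real.sq_sqrt hR.le
  have hsp : 0 < Real.sqrt R := Real.sqrt_pos.mpr hR
  have h1 := norm_trunc_apply_le v hR (star v (v ξ))
  have hn : ‖((R : ℂ)⁻¹)‖ = R⁻¹ := by
    rw [norm_inv, Complex.norm_real, Real.norm_of_nonneg hR.le]
  rw [hn]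
  calc R⁻¹ * ‖trunc v R (star v (v ξ))‖
      ≤ R⁻¹ * (Real.sqrt R / 2 * ‖star v (v ξ)‖) :=
        mul_le_mul_of_nonneg_left h1 (by positivity)
    _ = ‖star v (v ξ)‖ / (2 * Real.sqrt R) := by
        conv_lhs => rw [show R⁻¹ = (Real.sqrt R * Real.sqrt R)⁻¹ from by
          rw [Real.mul_self_sqrt hR.le]]
        field_simp

/-- (H2, squared) `‖v ξ - trunc v R ξ‖² ≤ ‖v⋆ v ξ‖² / (4 R)`. -/
theorem norm_sub_trunc_sq_le (v : H →L[ℂ] H) {R : ℝ} (hR : 0 < R) (ξ : H) :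
    ‖v ξ - trunc v R ξ‖ ^ 2 ≤ ‖star v (v ξ)‖ ^ 2 / (4 * R) := by
  have h := norm_sub_trunc_le v hR ξ
  have hs : Real.sqrt R ^ 2 = R := Real.sq_sqrt hR.le
  have h0 : 0 ≤ ‖v ξ - trunc v R ξ‖ := norm_nonneg _
  calc ‖v ξ - trunc v R ξ‖ ^ 2 ≤ (‖star v (v ξ)‖ / (2 * Real.sqrt R)) ^ 2 :=
        pow_le_pow_left₀ h0 h 2
    _ = ‖star v (v ξ)‖ ^ 2 / (4 * R) := by
        rw [div_pow, mul_pow, hs]; norm_num

/-- Package H in one statement. -/
theorem exists_truncation (v : H →L[ℂ] H) {R : ℝ} (hR : 0 < R) :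
    ∃ v' : H →L[ℂ] H, ‖v'‖ ≤ Real.sqrt R / 2 ∧
      (∀ ξ : H, ‖v ξ - v' ξ‖ ≤ ‖star v (v ξ)‖ / (2 * Real.sqrt R)) ∧
      (∀ ξ : H, ‖v ξ - v' ξ‖ ^ 2 ≤ ‖star v (v ξ)‖ ^ 2 / (4 * R)) ∧
      (∀ b : H →L[ℂ] H, b * v = v * b → b * star v = star v * b → b * v' = v' * b) ∧
      (∀ M : VonNeumannAlgebra H, v ∈ M → v' ∈ M) :=
  ⟨trunc v R, norm_trunc_le v hR, norm_sub_trunc_le v hR, norm_sub_trunc_sq_le v hR,
    commute_trunc v hR, fun M hv => trunc_mem M v hR hv⟩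

/-- Package H in the shape the assembly consumes (helper43's / helper72's shape):
the inverse `w` of `1 + (v⋆ v)/R` itself, with `v * w` the truncation. -/
theorem exists_truncation_inverse (v : H →L[ℂ] H) (R : ℝ) (hR : 0 < R) :
    ∃ w : H →L[ℂ] H,
      w * (1 + (R⁻¹ : ℂ) • (star v * v)) = 1 ∧ (1 + (R⁻¹ : ℂ) • (star v * v)) * w = 1 ∧
      (∀ x, ‖(v * w) x‖ ≤ Real.sqrt R / 2 * ‖x‖) ∧ ‖v * w‖ ≤ Real.sqrt R / 2 ∧
      (∀ ξ, ‖v ξ - (v * w) ξ‖ ≤ ‖(star v * v) ξ‖ / (2 * Real.sqrt R)) ∧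
      (∀ ξ, ‖v ξ - (v * w) ξ‖ ^ 2 ≤ ‖(star v * v) ξ‖ ^ 2 / (4 * R)) ∧
      (∀ b : H →L[ℂ] H, b * v = v * b → b * star v = star v * b → b * (v * w) = (v * w) * b) ∧
      (∀ M : VonNeumannAlgebra H, v ∈ M → v * w ∈ M) :=
  ⟨Ring.inverse (resA v R), inverse_mul_resA v hR, resA_mul_inverse v hR,
    norm_trunc_apply_le v hR, norm_trunc_le v hR, norm_sub_trunc_le v hR,
    norm_sub_trunc_sq_le v hR, commute_trunc v hR, fun M hv => trunc_mem M v hR hv⟩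

/-- The exact three-clause shape quoted in the coordinator's post. -/
theorem exists_truncation_min (v : H →L[ℂ] H) (R : ℝ) (hR : 0 < R) :
    ∃ w : H →L[ℂ] H, ‖v * w‖ ≤ Real.sqrt R / 2 ∧
      (∀ ξ, ‖v ξ - (v * w) ξ‖ ≤ ‖(star v * v) ξ‖ / (2 * Real.sqrt R)) ∧
      (∀ M : VonNeumannAlgebra H, v ∈ M → v * w ∈ M) :=
  ⟨Ring.inverse (resA v R), norm_trunc_le v hR, norm_sub_trunc_le v hR,
    fun M hv => trunc_mem M v hR hv⟩

end Crest.Agent.Helper58.S0112
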